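import Vale.Agent.P088.R2.H168.INF.Half

/-!
# P088, stage 3, zone INF: bounds of the forms of one slot and of the mixed forms
-/

open MeasureTheory Set Filter
open scoped ContDiff Topology

noncomputable section

namespace Vale.Agent.P088.R2.H380.INF

open Vale.Agent.P088.R2.H961.GW Vale.Agent.P088.R2.H960.W Vale.Agent.P088.R2.H644
open Vale.Agent.P088.R2.H551.E Vale.Agent.P088.R2.H168.INF

variable {E ι κ : Type*} [NormedAddCommGroup E] [NormedSpace ℝ E] [Fintype ι] [Fintype κ]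

section alg

theorem sum_abs_sq (A : ι → ℝ) : (∑ i, |A i|) ^ 2 ≤ Fintype.card ι * ∑ i, A i ^ 2 := by
  have h := sq_sum_le_card_mul_sum_sq (s := (Finset.univ : Finset ι)) (f := fun i => |A i|)
  simpa [sq_abs] using h

theorem form_bd {H : ι → κ → ℝ} {m : ℝ} (hm : ∀ i k, |H i k| ≤ m) (A : ι → ℝ) (B : κ → ℝ) :
    |∑ i, ∑ k, H i k * A i * B k| ≤ m * ((∑ i, |A i|) * ∑ k, |B k|) := by
  have h1 : ∀ i k, |H i k * A i * B k| ≤ m * (|A i| * |B k|) := fun i k => by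
    rw [abs_mul, abs_mul, mul_assoc]
    exact mul_le_mul_of_nonneg_right (hm i k) (by positivity)
  refine (Finset.abs_sum_le_sum_abs _ _).trans ?_
  refine (Finset.sum_le_sum fun i _ => Finset.abs_sum_le_sum_abs _ _).trans ?_
  refine (Finset.sum_le_sum fun i _ => Finset.sum_le_sum fun k _ => h1 i k).trans (le_of_eq ?_)
  rw [Finset.sum_mul_sum, Finset.mul_sum]
  exact Finset.sum_congr rfl fun i _ => by rw [Finset.mul_sum]

end alg

section pw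

variable {σ : Sl E ι} {τ : Sl E κ} {f W : E → ℝ} {z : E}

/-- The entries of the Hessian tensor. -/
theorem Hc_le {S S₁ w₁ w₂ : ℝ} (bS : ∀ i j, |σ.s i j z| ≤ S)
    (bD : ∀ k i j, |σ.D k (σ.s i j) z| ≤ S₁) (bη : ∀ i, σ.η i z = 0)
    (b1 : ∀ i, |σ.D i f z| ≤ w₁) (b2 : ∀ i j, |σ.D i (σ.D j f) z| ≤ w₂) (i l : ι) :
    |σ.Hc f i l z| ≤ (Fintype.card ι : ℝ) ^ 2 * (S ^ 2 * w₂ + 3 / 2 * (S * S₁ * w₁)) := by
  have S0 : 0 ≤ S := (abs_nonneg _).trans (bS i i)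
  have S10 : 0 ≤ S₁ := (abs_nonneg _).trans (bD i i i)
  have w10 : 0 ≤ w₁ := (abs_nonneg _).trans (b1 i)
  have w20 : 0 ≤ w₂ := (abs_nonneg _).trans (b2 i i)
  have key : ∀ j k, |σ.s i j z * σ.s k l z * (σ.D j (σ.D k f) z + σ.D k (σ.D j f) z) +
    (σ.s i j z * (σ.D j (σ.s k l) z + σ.η j z * σ.s k l z) +
      σ.s l j z * (σ.D j (σ.s k i) z + σ.η j z * σ.s k i z)) * σ.D k f z -
    σ.s j k z * σ.D j f z * σ.D k (σ.s i l) z - 2 * (σ.s j k z * σ.D j f z * σ.η k z) *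
      σ.s i l z| ≤ 2 * (S ^ 2 * w₂) + 3 * (S * S₁ * w₁) := by
    intro j k
    rw [bη j, bη k]
    have e : σ.s i j z * σ.s k l z * (σ.D j (σ.D k f) z + σ.D k (σ.D j f) z) +
      (σ.s i j z * (σ.D j (σ.s k l) z + 0 * σ.s k l z) +
      σ.s l j z * (σ.D j (σ.s k i) z + 0 * σ.s k i z)) * σ.D k f z -
      σ.s j k z * σ.D j f z * σ.D k (σ.s i l) z - 2 * (σ.s j k z * σ.D j f z * 0) *
      σ.s i l z = σ.s i j z * σ.s k l z * σ.D j (σ.D k f) z +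
      σ.s i j z * σ.s k l z * σ.D k (σ.D j f) z + σ.s i j z * σ.D j (σ.s k l) z * σ.D k f z +
      σ.s l j z * σ.D j (σ.s k i) z * σ.D k f z -
      σ.s j k z * σ.D k (σ.s i l) z * σ.D j f z := by ring
    rw [e]
    have t3 : ∀ {a b c A B C : ℝ}, |a| ≤ A → |b| ≤ B → |c| ≤ C → |a * b * c| ≤ A * B * C := by
      intro a b c A B C ha hb hc
      rw [abs_mul, abs_mul]
      have hA := (abs_nonneg a).trans ha
      have hB := (abs_nonneg b).trans hb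
      exact mul_le_mul (mul_le_mul ha hb (abs_nonneg _) hA) hc (abs_nonneg _) (mul_nonneg hA hB)
    have a1 := t3 (bS i j) (bS k l) (b2 j k)
    have a2 := t3 (bS i j) (bS k l) (b2 k j)
    have a3 := t3 (bS i j) (bD j k l) (b1 k)
    have a4 := t3 (bS l j) (bD j k i) (b1 k)
    have a5 := t3 (bS j k) (bD k i l) (b1 j)
    refine (abs_sub _ _).trans ?_
    have b1 := abs_add_le (σ.s i j z * σ.s k l z * σ.D j (σ.D k f) z +
      σ.s i j z * σ.s k l z * σ.D k (σ.D j f) z + σ.s i j z * σ.D j (σ.s k l) z * σ.D k f z)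
      (σ.s l j z * σ.D j (σ.s k i) z * σ.D k f z)
    have b2 := abs_add_le (σ.s i j z * σ.s k l z * σ.D j (σ.D k f) z +
      σ.s i j z * σ.s k l z * σ.D k (σ.D j f) z) (σ.s i j z * σ.D j (σ.s k l) z * σ.D k f z)
    have b3 := abs_add_le (σ.s i j z * σ.s k l z * σ.D j (σ.D k f) z)
      (σ.s i j z * σ.s k l z * σ.D k (σ.D j f) z)
    nlinarith
  unfold Sl.Hc
  rw [abs_mul, abs_of_pos (by norm_num : (0 : ℝ) < 1 / 2)]
  have h1 := (Finset.abs_sum_le_sum_abs (fun j => ∑ k, (σ.s i j z * σ.s k l z *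
    (σ.D j (σ.D k f) z + σ.D k (σ.D j f) z) +
    (σ.s i j z * (σ.D j (σ.s k l) z + σ.η j z * σ.s k l z) +
      σ.s l j z * (σ.D j (σ.s k i) z + σ.η j z * σ.s k i z)) * σ.D k f z -
    σ.s j k z * σ.D j f z * σ.D k (σ.s i l) z - 2 * (σ.s j k z * σ.D j f z * σ.η k z) *
      σ.s i l z)) Finset.univ).trans
    ((Finset.sum_le_sum fun j _ => Finset.abs_sum_le_sum_abs _ _).trans
    (Finset.sum_le_sum fun j _ => Finset.sum_le_sum fun k _ => key j k))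
  simp only [Finset.sum_const, Finset.card_univ, nsmul_eq_mul] at h1
  calc _ ≤ 1 / 2 * ((Fintype.card ι : ℝ) * (Fintype.card ι *
        (2 * (S ^ 2 * w₂) + 3 * (S * S₁ * w₁)))) :=
        mul_le_mul_of_nonneg_left h1 (by norm_num)
    _ = _ := by ring

/-- The Hessian form of one slot. -/
theorem HH_le {S S₁ w₁ w₂ : ℝ} (bS : ∀ i j, |σ.s i j z| ≤ S)
    (bD : ∀ k i j, |σ.D k (σ.s i j) z| ≤ S₁) (bη : ∀ i, σ.η i z = 0)
    (b1 : ∀ i, |σ.D i f z| ≤ w₁) (b2 : ∀ i j, |σ.D i (σ.D j f) z| ≤ w₂) (S0 : 0 ≤ S)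
    (S10 : 0 ≤ S₁) (w10 : 0 ≤ w₁) (w20 : 0 ≤ w₂) (A : ι → ℝ) :
    |HH σ f z A| ≤ (Fintype.card ι : ℝ) ^ 3 * (S ^ 2 * w₂ + 3 / 2 * (S * S₁ * w₁)) *
      ∑ i, A i ^ 2 := by
  have h := form_bd (H := fun i l => σ.Hc f i l z)
    (fun i l => Hc_le bS bD bη b1 b2 i l) A A
  have e : ∑ i, ∑ k, (fun i l => σ.Hc f i l z) i k * A i * A k = HH σ f z A := rfl
  rw [e] at h
  refine h.trans ?_
  have h2 := sum_abs_sq A
  have h3 : 0 ≤ (Fintype.card ι : ℝ) ^ 2 * (S ^ 2 * w₂ + 3 / 2 * (S * S₁ * w₁)) := by positivity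
  calc _ = (Fintype.card ι : ℝ) ^ 2 * (S ^ 2 * w₂ + 3 / 2 * (S * S₁ * w₁)) *
        (∑ i, |A i|) ^ 2 := by ring
    _ ≤ (Fintype.card ι : ℝ) ^ 2 * (S ^ 2 * w₂ + 3 / 2 * (S * S₁ * w₁)) *
        (Fintype.card ι * ∑ i, A i ^ 2) := mul_le_mul_of_nonneg_left h2 h3
    _ = _ := by ring

/-- The mixed form. -/
theorem MM_le {S w : ℝ} (bS : ∀ i j, |σ.s i j z| ≤ S) (bS' : ∀ i j, |τ.s i j z| ≤ S)
    (bm : ∀ i k, |σ.D i (τ.D k W) z| ≤ w) (S0 : 0 ≤ S) (w0 : 0 ≤ w) (A : ι → ℝ) (B : κ → ℝ) :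
    |MM σ τ W z A B| ≤ (Fintype.card ι * Fintype.card κ) * (S ^ 2 * w) *
      ((Fintype.card ι * ∑ i, A i ^ 2 + Fintype.card κ * ∑ k, B k ^ 2) / 2) := by
  have hM : ∀ i k, |Ch.Mc σ τ W i k z| ≤ (Fintype.card ι * Fintype.card κ) * (S ^ 2 * w) := by
    intro i k
    unfold Ch.Mc
    refine (Finset.abs_sum_le_sum_abs _ _).trans ?_
    refine (Finset.sum_le_sum fun j _ => Finset.abs_sum_le_sum_abs _ _).trans ?_
    refine (Finset.sum_le_sum (g := fun _ => ∑ _l : κ, S ^ 2 * w) fun j _ =>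
      Finset.sum_le_sum fun l _ => ?_).trans (le_of_eq ?_)
    · rw [abs_mul, abs_mul, sq]
      exact mul_le_mul (mul_le_mul (bS i j) (bS' k l) (abs_nonneg _) S0) (bm j l) (abs_nonneg _)
        (mul_nonneg S0 S0)
    · simp only [Finset.sum_const, Finset.card_univ, nsmul_eq_mul]
      ring
  have h := form_bd hM A B
  have e : ∑ i, ∑ k, Ch.Mc σ τ W i k z * A i * B k = MM σ τ W z A B := rfl
  rw [e] at h
  refine h.trans ?_
  have h2 := sum_abs_sq A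
  have h3 := sum_abs_sq B
  have h4 := two_mul_le_add_sq (∑ i, |A i|) (∑ k, |B k|)
  refine mul_le_mul_of_nonneg_left ?_ (by positivity)
  linarith

/-- The linear forms. -/
theorem gA_le {S w : ℝ} (bS : ∀ i j, |σ.s i j z| ≤ S) (b : ∀ i, |σ.D i f z| ≤ w)
    (S0 : 0 ≤ S) (w0 : 0 ≤ w) (A : ι → ℝ) :
    gA σ f z A ^ 2 ≤ (Fintype.card ι : ℝ) ^ 3 * (S * w) ^ 2 * ∑ i, A i ^ 2 := by
  have h1 : |gA σ f z A| ≤ Fintype.card ι * (S * w) * ∑ j, |A j| := by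
    unfold gA
    refine (Finset.abs_sum_le_sum_abs _ _).trans ?_
    refine (Finset.sum_le_sum fun j _ => Finset.abs_sum_le_sum_abs _ _).trans ?_
    refine (Finset.sum_le_sum (g := fun _ : ι => ∑ j : ι, S * w * |A j|) fun i _ =>
      Finset.sum_le_sum fun j _ => ?_).trans (le_of_eq ?_)
    · rw [abs_mul, abs_mul]
      exact mul_le_mul_of_nonneg_right (mul_le_mul (bS i j) (b i) (abs_nonneg _) S0) (abs_nonneg _)
    · simp only [Finset.sum_const, Finset.card_univ, nsmul_eq_mul]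
      rw [← Finset.mul_sum]
      ring
  have h2 := sum_abs_sq A
  have h3 : gA σ f z A ^ 2 ≤ (Fintype.card ι * (S * w) * ∑ j, |A j|) ^ 2 := by
    rw [← sq_abs]
    exact pow_le_pow_left₀ (abs_nonneg _) h1 2
  refine h3.trans ?_
  calc (Fintype.card ι * (S * w) * ∑ j, |A j|) ^ 2 =
        (Fintype.card ι : ℝ) ^ 2 * (S * w) ^ 2 * (∑ j, |A j|) ^ 2 := by ring
    _ ≤ (Fintype.card ι : ℝ) ^ 2 * (S * w) ^ 2 * (Fintype.card ι * ∑ i, A i ^ 2) :=
        mul_le_mul_of_nonneg_left h2 (by positivity)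
    _ = _ := by ring

end pw

end Vale.Agent.P088.R2.H380.INF
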