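import Vale.Agent.P088.R2.H269.INF.Add
import Vale.Agent.P088.R2.H464.EP.SymU
import Vale.Agent.P088.R2.H961.W.Inst

/-!
# P088, stage 3, zone INF: the slot quantities at one point

`gm R f j z = ∑_{i ≤ j} ‖D^(i+1) f (z)‖ R^(i-j)`. `sb_pt`: all slot quantities of `f` at `z` are
bounded by `C gm`, with `C` depending only on `n` (tensors with `‖D^m s‖ ≤ 2 R^(-m)`, `m ≤ 3`).
-/

open Set Filter
open scoped ContDiff Topology

noncomputable section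

namespace Vale.Agent.P088.R2.H380.INF

open Vale.Agent.P088.LR Vale.Agent.P088.HY
open Vale.Agent.P088.R2.H644.Sy Vale.Agent.P088.R2.H961.GW Vale.Agent.P088.R2.H644.Ch
open Vale.Agent.P088.R2.H269.INF

variable {n : ℕ}

/-- The graded size of a function at a point. -/
def gm (R : ℝ) (f : VV n → ℝ) (j : ℕ) (z : VV n) : ℝ :=
  ∑ i ∈ Finset.range (j + 1), ‖iteratedFDeriv ℝ (i + 1) f z‖ * R⁻¹ ^ (j - i)

theorem gm_nn {R : ℝ} (hR : 0 < R) (f : VV n → ℝ) (j : ℕ) (z : VV n) : 0 ≤ gm R f j z := by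
  unfold gm
  positivity

theorem gm_top {R : ℝ} (hR : 0 < R) (f : VV n → ℝ) (j : ℕ) (z : VV n) :
    ‖iteratedFDeriv ℝ (j + 1) f z‖ ≤ gm R f j z := by
  have h := Finset.single_le_sum (s := Finset.range (j + 1))
    (f := fun i => ‖iteratedFDeriv ℝ (i + 1) f z‖ * R⁻¹ ^ (j - i))
    (fun i _ => by positivity) (Finset.mem_range.2 (Nat.lt_succ_self j))
  simpa [gm] using h

theorem gm_step {R : ℝ} (_hR : 0 < R) (f : VV n → ℝ) (j : ℕ) (z : VV n) :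
    gm R f j z * R⁻¹ ≤ gm R f (j + 1) z := by
  have e : gm R f (j + 1) z = gm R f j z * R⁻¹ + ‖iteratedFDeriv ℝ (j + 2) f z‖ := by
    unfold gm
    rw [Finset.sum_range_succ, Finset.sum_mul, Nat.sub_self, pow_zero, mul_one]
    congr 1
    refine Finset.sum_congr rfl fun i hi => ?_
    have hi' : i < j + 1 := Finset.mem_range.1 hi
    rw [show j + 1 - i = (j - i) + 1 by omega, pow_succ]
    ring
  rw [e]
  linarith [norm_nonneg (iteratedFDeriv ℝ (j + 2) f z)]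

/-- All sizes from one bound of the derivatives. -/
theorem gm_le {R : ℝ} (hR : 1 ≤ R) {f : VV n → ℝ} {z : VV n} {k : ℕ} {δ : ℝ} (h0 : 0 ≤ δ)
    (h : ∀ i, 1 ≤ i → i ≤ k + 1 → ‖iteratedFDeriv ℝ i f z‖ ≤ δ) {j : ℕ} (hj : j ≤ k) :
    gm R f j z ≤ (j + 1) * δ := by
  unfold gm
  have h1 : ∀ i ∈ Finset.range (j + 1),
      ‖iteratedFDeriv ℝ (i + 1) f z‖ * R⁻¹ ^ (j - i) ≤ δ := by
    intro i hi
    have hi' : i < j + 1 := Finset.mem_range.1 hi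
    have a1 := h (i + 1) (by omega) (by omega)
    have a2 : R⁻¹ ^ (j - i) ≤ 1 :=
      pow_le_one₀ (inv_nonneg.2 (by linarith)) (inv_le_one_of_one_le₀ hR)
    have a3 : 0 ≤ R⁻¹ ^ (j - i) := pow_nonneg (inv_nonneg.2 (by linarith)) _
    calc _ ≤ δ * 1 := mul_le_mul a1 a2 a3 h0
      _ = δ := mul_one δ
  refine (Finset.sum_le_sum h1).trans (le_of_eq ?_)
  rw [Finset.sum_const, Finset.card_range, nsmul_eq_mul]
  push_cast
  ring

/-- The hypotheses. -/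
structure Bs (R : ℝ) (s₁ s₂ : MF n) (f : VV n → ℝ) : Prop where
  R1 : 1 ≤ R
  c1 : ∀ i j, ContDiff ℝ ∞ fun x => s₁ x i j
  c2 : ∀ i j, ContDiff ℝ ∞ fun x => s₂ x i j
  y1 : ∀ x i j, s₁ x i j = s₁ x j i
  y2 : ∀ x i j, s₂ x i j = s₂ x j i
  b1 : ∀ i j, ∀ m ≤ 3, ∀ x, ‖iteratedFDeriv ℝ m (fun x => s₁ x i j) x‖ ≤ 2 * R⁻¹ ^ m
  b2 : ∀ i j, ∀ m ≤ 3, ∀ x, ‖iteratedFDeriv ℝ m (fun x => s₂ x i j) x‖ ≤ 2 * R⁻¹ ^ m
  sf : ContDiff ℝ ∞ f

theorem fr1 {s : MF n} (h : ∀ i j, ContDiff ℝ ∞ (fun x => s x i j))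
    (sy : ∀ x i j, s x i j = s x j i) : Fr0 (fun _ => 1) s (univ : Set (V n)) where
  op := isOpen_univ
  rp _ _ := one_pos
  rs := contDiffOn_const
  ss i j := (h i j).contDiffOn
  sy := sy

/-- The slots on the whole space. -/
theorem okx1 {s₁ s₂ : MF n} (c1 : ∀ i j, ContDiff ℝ ∞ fun x => s₁ x i j)
    (c2 : ∀ i j, ContDiff ℝ ∞ fun x => s₂ x i j) (y1 : ∀ x i j, s₁ x i j = s₁ x j i)
    (y2 : ∀ x i j, s₂ x i j = s₂ x j i) :
    (slx (fun _ => 1) s₁).Ok (univ : Set (VV n)) (fun _ => 1) := by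
  have := okx (fr1 c1 y1) (fr1 c2 y2) isOpen_univ (U := (univ : Set (VV n)))
    (fun z _ => ⟨mem_univ _, mem_univ _⟩)
  rwa [tht_one] at this

theorem oky1 {s₁ s₂ : MF n} (c1 : ∀ i j, ContDiff ℝ ∞ fun x => s₁ x i j)
    (c2 : ∀ i j, ContDiff ℝ ∞ fun x => s₂ x i j) (y1 : ∀ x i j, s₁ x i j = s₁ x j i)
    (y2 : ∀ x i j, s₂ x i j = s₂ x j i) :
    (sly (fun _ => 1) s₂).Ok (univ : Set (VV n)) (fun _ => 1) := by
  have := oky (fr1 c1 y1) (fr1 c2 y2) isOpen_univ (U := (univ : Set (VV n)))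
    (fun z _ => ⟨mem_univ _, mem_univ _⟩)
  rwa [tht_one] at this

theorem cm1 {s₁ s₂ : MF n} (c1 : ∀ i j, ContDiff ℝ ∞ fun x => s₁ x i j)
    (c2 : ∀ i j, ContDiff ℝ ∞ fun x => s₂ x i j) (y1 : ∀ x i j, s₁ x i j = s₁ x j i)
    (y2 : ∀ x i j, s₂ x i j = s₂ x j i) :
    Cm (slx (fun _ => 1) s₁) (sly (fun _ => 1) s₂) (univ : Set (VV n)) :=
  cmm (fr1 c1 y1) (fr1 c2 y2) isOpen_univ (fun z _ => ⟨mem_univ _, mem_univ _⟩)

theorem pd_c1 (i : Fin n) (x : V n) : pd i (fun _ : V n => (1 : ℝ)) x = 0 := by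
  unfold pd
  simp

section fam

variable {α : Type*} {R : α → ℝ} {s₁ s₂ : α → MF n} {f : α → VV n → ℝ}

theorem fsx1 (h : ∀ a, Bs (R a) (s₁ a) (s₂ a) (f a)) :
    FS (fun a => slx (fun _ => 1) (s₁ a)) (fun i => ((Pi.single i 1, 0) : VV n))
      (fun _ => (univ : Set (VV n))) (fun a _ => R a) 3 where
  one _ _ := rfl
  dir _ _ := rfl
  k0 a i z := by
    show -((n : ℝ) - 1) * pd i (fun _ => 1) z.1 = 0
    rw [pd_c1, mul_zero]
  ss i j := by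
    have h1 : Sf (fun _ : α => (univ : Set (V n))) (fun a _ => R a) (fun _ _ => 1) 3
        (fun a (x : V n) => s₁ a x i j) :=
      ⟨fun a => ((h a).c1 i j).contDiffOn, fun m hm => ⟨2, fun a x _ => by
        rw [one_mul]; exact (h a).b1 i j m hm x⟩⟩
    exact Sf.compL (U := fun _ => (univ : Set (VV n))) (fun _ => isOpen_univ) h1
      (ContinuousLinearMap.fst ℝ (V n) (V n)) (fun _ _ _ => mem_univ _)
      (fun a _ _ => zero_le_one.trans (h a).R1) (fun _ _ _ => zero_le_one)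

theorem fsy1 (h : ∀ a, Bs (R a) (s₁ a) (s₂ a) (f a)) :
    FS (fun a => sly (fun _ => 1) (s₂ a)) (fun i => ((0, Pi.single i 1) : VV n))
      (fun _ => (univ : Set (VV n))) (fun a _ => R a) 3 where
  one _ _ := rfl
  dir _ _ := rfl
  k0 a i z := by
    show -((n : ℝ) - 1) * pd i (fun _ => 1) z.2 = 0
    rw [pd_c1, mul_zero]
  ss i j := by
    have h1 : Sf (fun _ : α => (univ : Set (V n))) (fun a _ => R a) (fun _ _ => 1) 3
        (fun a (x : V n) => s₂ a x i j) :=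
      ⟨fun a => ((h a).c2 i j).contDiffOn, fun m hm => ⟨2, fun a x _ => by
        rw [one_mul]; exact (h a).b2 i j m hm x⟩⟩
    exact Sf.compL (U := fun _ => (univ : Set (VV n))) (fun _ => isOpen_univ) h1
      (ContinuousLinearMap.snd ℝ (V n) (V n)) (fun _ _ _ => mem_univ _)
      (fun a _ _ => zero_le_one.trans (h a).R1) (fun _ _ _ => zero_le_one)

theorem gd1 (h : ∀ a, Bs (R a) (s₁ a) (s₂ a) (f a)) :
    Gd (fun _ => (univ : Set (VV n))) (fun a _ => R a) (fun j a z => gm (R a) (f a) j z) where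
  ρ0 a _ _ := one_pos.trans_le (h a).R1
  γ0 j a z _ := gm_nn (one_pos.trans_le (h a).R1) _ _ _
  gr j := ⟨1, fun a z _ => by
    rw [one_mul]; exact gm_step (one_pos.trans_le (h a).R1) _ _ _⟩

theorem sg1 (h : ∀ a, Bs (R a) (s₁ a) (s₂ a) (f a)) (k : ℕ) :
    Sg (fun _ => (univ : Set (VV n))) (fun j a z => gm (R a) (f a) j z) k
      (fun a => fderiv ℝ (f a)) where
  sm a := ((h a).sf.fderiv_right (m := ∞) (by norm_num)).contDiffOn
  bd j _ := ⟨1, fun a z _ => by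
    rw [norm_iteratedFDeriv_fderiv, one_mul]
    exact gm_top (one_pos.trans_le (h a).R1) _ _ _⟩

end fam

/-- **The slot quantities at a point.** -/
theorem sb_pt (n : ℕ) : ∃ C, 0 ≤ C ∧ ∀ (R : ℝ) (s₁ s₂ : MF n) (f : VV n → ℝ),
    Bs R s₁ s₂ f → ∀ z : VV n,
      Sb4 (slx (fun _ => 1) s₁) (sly (fun _ => 1) s₂) f C (fun j => gm R f j z) z ∧
      Sb4 (sly (fun _ => 1) s₂) (slx (fun _ => 1) s₁) f C (fun j => gm R f j z) z := by
  let α := {p : ℝ × MF n × MF n × (VV n → ℝ) // Bs p.1 p.2.1 p.2.2.1 p.2.2.2}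
  have h : ∀ a : α, Bs a.1.1 a.1.2.1 a.1.2.2.1 a.1.2.2.2 := fun a => a.2
  have ox : ∀ a : α, (slx (fun _ => 1) a.1.2.1).Ok (univ : Set (VV n)) (fun _ => 1) := fun a =>
    okx1 (h a).c1 (h a).c2 (h a).y1 (h a).y2
  have oy : ∀ a : α, (sly (fun _ => 1) a.1.2.2.1).Ok (univ : Set (VV n)) (fun _ => 1) := fun a =>
    oky1 (h a).c1 (h a).c2 (h a).y1 (h a).y2
  obtain ⟨C₁, c1, h1⟩ := sb4 (f := fun a : α => a.1.2.2.2) (fsx1 h) (fsy1 h) ox oy (gd1 h)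
    (fun a => (h a).sf.contDiffOn) (sg1 h 3)
  obtain ⟨C₂, c2, h2⟩ := sb4 (f := fun a : α => a.1.2.2.2) (fsy1 h) (fsx1 h) oy ox (gd1 h)
    (fun a => (h a).sf.contDiffOn) (sg1 h 3)
  refine ⟨C₁ + C₂, by positivity, fun R s₁ s₂ f hb z => ?_⟩
  have g0 : ∀ j, 0 ≤ gm R f j z := fun j => gm_nn (one_pos.trans_le hb.R1) _ _ _
  exact ⟨(h1 ⟨(R, s₁, s₂, f), hb⟩ z (mem_univ z)).mono g0 (by linarith),
    (h2 ⟨(R, s₁, s₂, f), hb⟩ z (mem_univ z)).mono g0 (by linarith)⟩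

end Vale.Agent.P088.R2.H380.INF
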